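import Mathlib
import Vale.Agent.Lib.P230.Defs
import Vale.Agent.Lib.P230.Cyl
import Vale.Agent.Lib.P230.Per
import Vale.Agent.Lib.P230.Main
import Vale.Agent.Lib.P230.Stack
import Vale.Agent.Lib.P230.Periodic

/-! # Structure of the translative covering density

(1) `θ_T(K)` is the infimum of the densities of the periodic coverings `K + P + (2ρ) ℤ^n = ℝ^n`;
(2) `θ_T([0,1] × K) = θ_T(K)`; (3) `Θ_T` is monotone in the dimension; (4) a linear bound for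
`Θ_T` in the dimensions `2^k` gives a linear bound in all dimensions.
The definitions are in `Vale.Agent.Lib.P230.Defs`, `per` in `Per`, `thetaPer` in `Periodic`. -/

namespace Vale.Agent.Results.P230.A_Structure

open Vale.Agent.Lib.P230
open scoped ENNReal

theorem dyadic (C : ℝ≥0∞) (h : ∀ k : ℕ, ThetaT (2 ^ k) ≤ C * ((2 ^ k : ℕ) : ℝ≥0∞))
    (n : ℕ) (hn : 1 ≤ n) : ThetaT n ≤ 2 * C * (n : ℝ≥0∞) := by
  have h1 : n ≤ 2 ^ Nat.clog 2 n := Nat.le_pow_clog (by norm_num) n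
  have h2 : 2 ^ Nat.clog 2 n ≤ 2 * n := by
    rcases Nat.lt_or_ge 1 n with h1n | h1n
    · have h3 := Nat.pow_pred_clog_lt_self (b := 2) (by norm_num) h1n
      have h4 : 0 < Nat.clog 2 n := Nat.clog_pos (by norm_num) h1n
      obtain ⟨j, hj⟩ : ∃ j, Nat.clog 2 n = j + 1 := ⟨Nat.clog 2 n - 1, by omega⟩
      rw [hj] at h3 ⊢
      simp only [Nat.pred_eq_sub_one, Nat.add_sub_cancel] at h3
      rw [pow_succ]
      omega
    · have : n = 1 := by omega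
      subst this
      simp
  calc ThetaT n ≤ ThetaT (2 ^ Nat.clog 2 n) := ThetaT_monotone h1
    _ ≤ C * ((2 ^ Nat.clog 2 n : ℕ) : ℝ≥0∞) := h _
    _ ≤ C * ((2 * n : ℕ) : ℝ≥0∞) := by gcongr
    _ = 2 * C * (n : ℝ≥0∞) := by push_cast; ring

theorem result :
    (∀ (n : ℕ) (K : Set (Fin n → ℝ)), IsBody K →
      thetaT K = thetaPer K ∧ IsBody (cyl K) ∧ thetaT (cyl K) = thetaT K) ∧
    (∀ n m : ℕ, n ≤ m → ThetaT n ≤ ThetaT m) ∧
    (∀ C : ℝ≥0∞, (∀ k : ℕ, ThetaT (2 ^ k) ≤ C * ((2 ^ k : ℕ) : ℝ≥0∞)) →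
      ∀ n : ℕ, 1 ≤ n → ThetaT n ≤ 2 * C * (n : ℝ≥0∞)) :=
  ⟨fun _ _ hK => ⟨thetaT_eq_thetaPer hK, isBody_cyl hK, thetaT_cyl hK⟩,
    fun _ _ h => ThetaT_monotone h, dyadic⟩

end Vale.Agent.Results.P230.A_Structure
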