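import Mathlib
import Vale.Agent.Lib.P230.Defs
import Vale.Agent.Lib.P230.Cyl
import Vale.Agent.Lib.P230.Main
import Vale.Agent.Lib.P230.Stack

/-! # `θ_T([0,1] × K) = θ_T(K)` and monotonicity of `Θ_T`

For every convex body `K ⊆ ℝ^n` the cylinder `[0,1] × K ⊆ ℝ^(n+1)` is a convex body with exactly
the same translative covering density; hence `Θ_T` is a monotone function of the dimension.
All definitions are in `Vale.Agent.Lib.P230.Defs`. -/

namespace Vale.Agent.Results.P230.CylinderInvariance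

open Vale.Agent.Lib.P230

theorem result :
    (∀ (n : ℕ) (K : Set (Fin n → ℝ)), IsBody K →
      IsBody (cyl K) ∧ thetaT (cyl K) = thetaT K) ∧
    (∀ n m : ℕ, n ≤ m → ThetaT n ≤ ThetaT m) :=
  ⟨fun _ _ hK => ⟨isBody_cyl hK, thetaT_cyl hK⟩, fun _ _ h => ThetaT_monotone h⟩

end Vale.Agent.Results.P230.CylinderInvariance
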