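import Mathlib
import Vale.Agent.Lib.P230.Defs
import Vale.Agent.Lib.P230.Cyl
import Vale.Agent.Lib.P230.Main

/-! # `Θ_T(n) ≤ Θ_T(n+1)`: the worst-case translative covering density is nondecreasing

For every convex body `K ⊆ ℝ^n` the cylinder `[0,1] × K ⊆ ℝ^(n+1)` is a convex body with
`θ_T(K) ≤ θ_T([0,1] × K)`; hence `Θ_T(n) ≤ Θ_T(n+1)`.  All definitions are in
`Vale.Agent.Lib.P230.Defs`. -/

namespace Vale.Agent.Results.P230.TranslativeMonotone

open Vale.Agent.Lib.P230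

theorem result :
    (∀ (n : ℕ) (K : Set (Fin n → ℝ)), IsBody K →
      IsBody (cyl K) ∧ thetaT K ≤ thetaT (cyl K)) ∧
    (∀ n : ℕ, ThetaT n ≤ ThetaT (n + 1)) :=
  ⟨fun _ _ hK => ⟨isBody_cyl hK, thetaT_le_cyl hK⟩, ThetaT_mono_succ⟩

end Vale.Agent.Results.P230.TranslativeMonotone
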